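import Vale.Agent.P064.Tree

/-! Cores: a sparse set under a group action gives a tree of spread measures. -/

namespace Vale.Agent.P064

open Finset Pointwise

variable {X : Type*} [DecidableEq X] {G : Type*} [Group G] [Fintype G] [MulAction G X]

variable (G) in
/-- number of group elements whose translate of `F` contains `U` -/
def cnt (F U : Finset X) : ℕ := (univ.filter fun g : G => U ⊆ g • F).card

variable (G) in
/-- the orbit of a finite set -/
def orb (R : Finset X) : Finset (Finset X) := univ.image fun g : G => g • R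

variable (G) in
/-- the family of sets containing a translate of `F` -/
def Fam (F : Finset X) (W : Finset X) : Prop := ∃ g : G, g • F ⊆ W

omit [Fintype G] in
lemma Fam_mono (F : Finset X) : Monotone (Fam G F) :=
  fun _ _ h ⟨g, hg⟩ => ⟨g, hg.trans h⟩

lemma cnt_smul (F U : Finset X) (h : G) : cnt G F (h • U) = cnt G F U := by
  unfold cnt
  symm
  refine Finset.card_bij (fun g _ => h * g) (fun g hg => ?_) (fun g _ g' _ e => ?_)
    (fun g hg => ⟨h⁻¹ * g, ?_, by simp⟩)
  · simp only [mem_filter, mem_univ, true_and] at hg ⊢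
    rw [mul_smul]
    exact smul_finset_subset_smul_finset hg
  · exact mul_left_cancel e
  · simp only [mem_filter, mem_univ, true_and] at hg ⊢
    rw [mul_smul]
    exact smul_finset_subset_iff.1 hg

lemma fiber_card (R : Finset X) (h : G) :
    (univ.filter fun g : G => g • R = h • R).card = (univ.filter fun g : G => g • R = R).card := by
  symm
  refine Finset.card_bij (fun g _ => h * g) (fun g hg => ?_) (fun g _ g' _ e => ?_)
    (fun g hg => ⟨h⁻¹ * g, ?_, by simp⟩)
  · simp only [mem_filter, mem_univ, true_and] at hg ⊢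
    rw [mul_smul, hg]
  · exact mul_left_cancel e
  · simp only [mem_filter, mem_univ, true_and] at hg ⊢
    rw [mul_smul, hg, inv_smul_smul]

lemma card_eq_orb (R : Finset X) :
    Fintype.card G = (orb G R).card * (univ.filter fun g : G => g • R = R).card := by
  rw [← Finset.card_univ, Finset.card_eq_sum_card_image (fun g : G => g • R) univ, orb,
    ← smul_eq_mul, ← Finset.sum_const]
  refine Finset.sum_congr rfl fun V hV => ?_
  obtain ⟨h, -, rfl⟩ := mem_image.1 hV
  exact fiber_card R h

lemma cnt_le (F R : Finset X) :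
    cnt G F R ≤ 2 ^ F.card * (univ.filter fun g : G => g • R = R).card := by
  have h1 : cnt G F R = (univ.filter fun g : G => g • R ⊆ F).card := by
    unfold cnt
    refine Finset.card_bij (fun g _ => g⁻¹) (fun g hg => ?_) (fun g _ g' _ e => ?_)
      (fun g hg => ⟨g⁻¹, ?_, by simp⟩)
    · simp only [mem_filter, mem_univ, true_and] at hg ⊢
      exact subset_smul_finset_iff.1 hg
    · exact inv_injective e
    · simp only [mem_filter, mem_univ, true_and] at hg ⊢
      exact smul_finset_subset_iff.1 hg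
  rw [h1, ← card_powerset, mul_comm]
  refine Finset.card_le_mul_card_image_of_maps_to (f := fun g : G => g • R) (fun g hg => ?_) _
    (fun V _ => ?_)
  · simp only [mem_filter, mem_univ, true_and] at hg
    exact mem_powerset.2 hg
  · by_cases hV : ∃ h : G, h • R = V
    · obtain ⟨h, rfl⟩ := hV
      rw [← fiber_card R h]
      refine card_le_card fun g hg => ?_
      simp only [mem_filter, mem_univ, true_and] at hg ⊢
      exact hg.2
    · push Not at hV
      rw [Finset.filter_eq_empty_iff.2 (fun g _ => hV g)]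
      exact Nat.zero_le _

/-- the core of `F` -/
lemma core [Fintype X] {S : Finset X} {q : ℝ} (hq : 0 < q) (F : Finset X)
    (hS : ∀ g : G, g • F ⊆ S)
    (hF : ∀ R ⊆ F, 1 / 2 ≤ ((orb G R).card : ℝ) * q ^ R.card) :
    ∃ R ⊆ F, 8 * R.card ≤ F.card ∧ ∀ s, F.card ≤ s → ∀ B, Fam G R B →
      Phi G S (2 ^ 10 * q) s (Fam G F) B := by
  set ρ : ℝ := 2 ^ 10 * q with hρ
  have hρ0 : 0 < ρ := by positivity
  obtain ⟨R0, -, hR0⟩ := Finset.exists_max_image (univ : Finset (Finset X))
    (fun U => (cnt G F U : ℝ) / ρ ^ U.card) univ_nonempty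
  have hG : (0 : ℝ) < Fintype.card G := by exact_mod_cast Fintype.card_pos
  have h0 : (Fintype.card G : ℝ) ≤ (cnt G F R0 : ℝ) / ρ ^ R0.card := by
    have := hR0 ∅ (mem_univ _)
    simpa [cnt] using this
  have h1 : 0 < cnt G F R0 := by
    by_contra h
    have h' : cnt G F R0 = 0 := by omega
    rw [h'] at h0
    simp only [Nat.cast_zero, zero_div] at h0
    linarith
  obtain ⟨g0, hg0⟩ := card_pos.1 h1
  simp only [mem_filter, mem_univ, true_and] at hg0
  have hRF : g0⁻¹ • R0 ⊆ F := subset_smul_finset_iff.1 hg0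
  refine ⟨g0⁻¹ • R0, hRF, ?_, fun s hs B ⟨h, hB⟩ => ?_⟩
  · set R := g0⁻¹ • R0 with hR
    have hc : R.card = R0.card := card_smul_finset _ _
    rw [← cnt_smul F R0 g0⁻¹, ← hR, ← hc, le_div_iff₀ (by positivity)] at h0
    set σ := (univ.filter fun g : G => g • R = R).card with hσ
    have h2 : (Fintype.card G : ℝ) = (orb G R).card * σ := by exact_mod_cast card_eq_orb (G := G) R
    have h3 : (cnt G F R : ℝ) ≤ 2 ^ F.card * σ := by exact_mod_cast cnt_le (G := G) F R
    have hσ0 : (0 : ℝ) < σ := by
      have : 0 < σ := card_pos.2 ⟨1, by simp⟩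
      exact_mod_cast this
    have h4 : ((orb G R).card : ℝ) * ρ ^ R.card ≤ 2 ^ F.card := by
      rw [h2] at h0
      have : ((orb G R).card : ℝ) * ρ ^ R.card * σ ≤ 2 ^ F.card * σ := by nlinarith
      exact le_of_mul_le_mul_right this hσ0
    have h5 := hF R hRF
    have h6 : (2 : ℝ) ^ (10 * R.card) ≤ 2 ^ (F.card + 1) := by
      rw [hρ, mul_pow, ← pow_mul] at h4
      have : (0 : ℝ) < 2 ^ (10 * R.card) := by positivity
      rw [pow_succ]
      nlinarith
    have h7 : 10 * R.card ≤ F.card + 1 := (pow_le_pow_iff_right₀ (by norm_num)).1 h6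
    omega
  · set R := h • g0⁻¹ • R0 with hR
    have hc : R.card = R0.card := by rw [hR, card_smul_finset, card_smul_finset]
    have hcnt : cnt G F R = cnt G F R0 := by rw [hR, cnt_smul, cnt_smul]
    have hpos : (0 : ℝ) < cnt G F R := by rw [hcnt]; exact_mod_cast h1
    refine ⟨fun g => (if R ⊆ g • F then 1 else 0) / cnt G F R, fun g => g • F \ R,
      fun g => ?_, ?_, fun g hg => ⟨sdiff_subset.trans (hS g), ?_, g, ?_⟩, fun U hU => ?_⟩
    · refine div_nonneg ?_ hpos.le
      split_ifs <;> norm_num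
    · rw [← Finset.sum_div, div_eq_one_iff_eq hpos.ne']
      simp [cnt]
    · exact (card_le_card sdiff_subset).trans ((card_smul_finset _ _).trans_le hs)
    · intro x hx
      by_cases hxR : x ∈ R
      · exact mem_union_left _ (hB hxR)
      · exact mem_union_right _ (mem_sdiff.2 ⟨hx, hxR⟩)
    · have hk : ρ ^ U.card ≤ (1 + 1 / (s : ℝ)) * ρ ^ U.card :=
        le_mul_of_one_le_left (by positivity) (le_add_of_nonneg_right (by positivity))
      refine le_trans ?_ hk
      by_cases hd : Disjoint U R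
      · have h2 := hR0 (R ∪ U) (mem_univ _)
        rw [← hc, ← hcnt, card_union_of_disjoint hd.symm, pow_add,
          div_le_div_iff₀ (by positivity) (by positivity)] at h2
        have h3 : ∑ g : G, (if U ⊆ g • F \ R then
            (if R ⊆ g • F then (1 : ℝ) else 0) / cnt G F R else 0)
            = (cnt G F (R ∪ U) : ℝ) / cnt G F R := by
          conv_rhs => rw [cnt, card_filter, Nat.cast_sum, Finset.sum_div]
          refine Finset.sum_congr rfl fun g _ => ?_
          by_cases a1 : U ⊆ g • F <;> by_cases a2 : R ⊆ g • F <;>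
            simp [subset_sdiff, hd, union_subset_iff, a1, a2]
        rw [h3, div_le_iff₀ hpos]
        have h4 : (0 : ℝ) < ρ ^ R.card := by positivity
        have : (cnt G F (R ∪ U) : ℝ) * ρ ^ R.card ≤ ρ ^ U.card * cnt G F R * ρ ^ R.card := by
          nlinarith
        exact le_of_mul_le_mul_right this h4
      · rw [Finset.sum_eq_zero fun g _ => if_neg fun h => hd (subset_sdiff.1 h).2]
        positivity

/-- the list `8, 64, ..., 8 ^ j` -/
def lev (j : ℕ) : List ℕ := (List.range j).map fun k => 8 ^ (k + 1)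

lemma tree [Fintype X] {S : Finset X} {q : ℝ} (hq : 0 < q) (j : ℕ) (F : Finset X)
    (hj : F.card < 8 ^ j) (hS : ∀ g : G, g • F ⊆ S)
    (hF : ∀ R ⊆ F, 1 / 2 ≤ ((orb G R).card : ℝ) * q ^ R.card) :
    Tr G S (2 ^ 10 * q) (lev j) (Fam G F) ∅ := by
  induction j generalizing F with
  | zero =>
    obtain rfl : F = ∅ := card_eq_zero.1 (by simpa using hj)
    exact ⟨1, by simp⟩
  | succ j ih =>
    obtain ⟨R, hRF, hc, hR⟩ := core (G := G) hq F hS hF
    have h1 : lev (j + 1) = lev j ++ [8 ^ (j + 1)] := by simp [lev, List.range_succ]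
    rw [h1, Tr_append]
    refine Tr_mono_fam _ (hR _ hj.le) _ (ih R ?_
      (fun g => (smul_finset_subset_smul_finset hRF).trans (hS g))
      (fun R' hR' => hF R' (hR'.trans hRF)))
    rw [pow_succ] at hj
    omega

/-- the abstract theorem -/
theorem abstract [Fintype X] {S : Finset X} {q : ℝ} (hq : 0 < q) (hq1 : 2 ^ 35 * q ≤ 1) (J : ℕ)
    (H : Finset X) (hJ : H.card < 8 ^ J) (hS : ∀ g : G, g • H ⊆ S)
    (hH : ∀ R ⊆ H, 1 / 2 ≤ ((orb G R).card : ℝ) * q ^ R.card) :
    ∃ p : ℝ, 0 ≤ p ∧ p ≤ 1 ∧ p ≤ (6 * J + 4) * (2 ^ 35 * q) ∧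
      1 / 2 ≤ ex p S (fun W => ind (Fam G H W)) := by
  set p : ℝ := 2 ^ 35 * q with hp
  have hp0 : 0 < p := by positivity
  have h1 := rounds (ι := G) (S := S) (ρ := 2 ^ 10 * q) (p := p) (by positivity)
    (by rw [hp]; ring) hq1 (Fam_mono (G := G) H) (6 * J + 4) (3 * J + 1) (lev J) ?_ ?_ ∅
    (tree hq J H hJ hS hH)
  · refine ⟨1 - (1 - p) ^ (6 * J + 4), sub_nonneg.2 (pow_le_one₀ (by linarith) (by linarith)),
      sub_le_self _ (pow_nonneg (by linarith) _), ?_, ?_⟩
    · have := one_add_mul_le_pow (a := -p) (by linarith) (6 * J + 4)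
      push_cast at this
      rw [← sub_eq_add_neg] at this
      linarith
    · have h2 : (2 : ℝ) ^ (3 * J + 1) * (5 / 8) ^ (6 * J + 4) ≤ 1 / 2 := by
        rw [show 6 * J + 4 = 2 * (3 * J + 1) + 2 by ring, pow_add (5 / 8 : ℝ), pow_mul,
          ← mul_assoc, ← mul_pow]
        have : (2 * (5 / 8 : ℝ) ^ 2) ^ (3 * J + 1) ≤ 1 := pow_le_one₀ (by norm_num) (by norm_num)
        nlinarith
      have h3 : ex (1 - (1 - p) ^ (6 * J + 4)) S (fun W => ind (Fam G H W))
          + ex (1 - (1 - p) ^ (6 * J + 4)) S (fun W => ind (¬ Fam G H (∅ ∪ W))) = 1 := by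
        rw [← ex_add]
        refine Eq.trans ?_ (ex_const (1 - (1 - p) ^ (6 * J + 4)) S 1)
        congr 1
        funext W
        rw [empty_union]
        by_cases h : Fam G H W
        · rw [ind_pos h, ind_neg (not_not.2 h), add_zero]
        · rw [ind_neg h, ind_pos h, zero_add]
      linarith
  · refine List.pairwise_lt_range.map _ fun a b hab => ?_
    rw [← pow_succ']
    exact Nat.pow_le_pow_right (by norm_num) (by omega)
  · intro s hs
    obtain ⟨k, hk, rfl⟩ := List.mem_map.1 hs
    have hk' := List.mem_range.1 hk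
    rw [show (8 : ℕ) = 2 ^ 3 by norm_num, ← pow_mul]
    exact Nat.pow_lt_pow_right (by norm_num) (by omega)

end Vale.Agent.P064
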