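import Mathlib

/-! The threshold and the expectation threshold for containing a copy of a graph. -/

namespace Vale.Agent.P064

open MeasureTheory SimpleGraph

/-- `p_c(n,H)`: the least `p ∈ [0,1]` such that `G(n,p)` contains a copy of `H` with
probability at least `1/2`. -/
noncomputable def pc (n : ℕ) {V : Type} (H : SimpleGraph V) : ℝ :=
  sInf {p : ℝ | ∃ hp : p ∈ Set.Icc (0 : ℝ) 1,
    (1 / 2 : ℝ) ≤ (binomialRandom (Fin n) ⟨p, hp⟩).real {G | 0 < G.copyCount H}}

/-- `p_E(n,H)`: the least `p ∈ [0,1]` such that for every subgraph `F` of `H` the expected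
number of copies of `F` in `G(n,p)` is at least `1/2`. -/
noncomputable def pE (n : ℕ) {V : Type} (H : SimpleGraph V) : ℝ :=
  sInf {p : ℝ | ∃ hp : p ∈ Set.Icc (0 : ℝ) 1, ∀ F : H.Subgraph,
    (1 / 2 : ℝ) ≤ ∫ G, (G.copyCount F.coe : ℝ) ∂(binomialRandom (Fin n) ⟨p, hp⟩)}

end Vale.Agent.P064
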