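import Mathlib

/-! Expectation over a random subset of a finite set. -/

namespace Vale.Agent.P064

open Finset

variable {X : Type*} [DecidableEq X]

/-- Expectation of `f W` when `W` is a `p`-random subset of `S`. -/
noncomputable def ex (p : ℝ) (S : Finset X) (f : Finset X → ℝ) : ℝ :=
  ∑ W ∈ S.powerset, p ^ W.card * (1 - p) ^ (S.card - W.card) * f W

omit [DecidableEq X] in
lemma ex_empty (p : ℝ) (f : Finset X → ℝ) : ex p ∅ f = f ∅ := by
  simp [ex]

lemma ex_insert (p : ℝ) {S : Finset X} {a : X} (ha : a ∉ S) (f : Finset X → ℝ) :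
    ex p (insert a S) f = (1 - p) * ex p S f + p * ex p S (fun W => f (insert a W)) := by
  unfold ex
  rw [Finset.sum_powerset_insert ha, Finset.mul_sum, Finset.mul_sum, card_insert_of_notMem ha]
  congr 1
  · refine Finset.sum_congr rfl fun W hW => ?_
    have h : W.card ≤ S.card := card_le_card (mem_powerset.1 hW)
    rw [show S.card + 1 - W.card = (S.card - W.card) + 1 by omega, pow_succ]
    ring
  · refine Finset.sum_congr rfl fun W hW => ?_
    have hW' : a ∉ W := fun h => ha (mem_powerset.1 hW h)
    rw [card_insert_of_notMem hW', show S.card + 1 - (W.card + 1) = S.card - W.card by omega,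
      pow_succ]
    ring

omit [DecidableEq X] in
lemma ex_add (p : ℝ) (S : Finset X) (f g : Finset X → ℝ) :
    ex p S (fun W => f W + g W) = ex p S f + ex p S g := by
  simp only [ex, mul_add, Finset.sum_add_distrib]

omit [DecidableEq X] in
lemma ex_mul (p : ℝ) (S : Finset X) (c : ℝ) (f : Finset X → ℝ) :
    ex p S (fun W => c * f W) = c * ex p S f := by
  simp only [ex, Finset.mul_sum]
  exact Finset.sum_congr rfl fun W _ => by ring

omit [DecidableEq X] in
lemma ex_sum {ι : Type*} (p : ℝ) (S : Finset X) (I : Finset ι) (f : ι → Finset X → ℝ) :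
    ex p S (fun W => ∑ i ∈ I, f i W) = ∑ i ∈ I, ex p S (f i) := by
  simp only [ex, Finset.mul_sum]
  exact Finset.sum_comm

omit [DecidableEq X] in
lemma ex_mono {p : ℝ} (h0 : 0 ≤ p) (h1 : p ≤ 1) (S : Finset X) {f g : Finset X → ℝ}
    (h : ∀ W, f W ≤ g W) : ex p S f ≤ ex p S g := by
  unfold ex
  refine Finset.sum_le_sum fun W _ => mul_le_mul_of_nonneg_left (h W) ?_
  have : 0 ≤ 1 - p := by linarith
  positivity

lemma ex_const (p : ℝ) (S : Finset X) (c : ℝ) : ex p S (fun _ => c) = c := by
  induction S using Finset.induction_on with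
  | empty => exact ex_empty _ _
  | insert a S ha ih => rw [ex_insert p ha, ih]; ring

lemma ex_mem (p : ℝ) {S : Finset X} {a : X} (ha : a ∈ S) (f : Finset X → ℝ) :
    ex p S (fun W => if a ∈ W then f W else 0) = p * ex p S (fun W => f (insert a W)) := by
  rw [← Finset.insert_erase ha]
  have h : a ∉ S.erase a := Finset.notMem_erase a S
  rw [ex_insert p h, ex_insert p h]
  have h0 : ex p (S.erase a) (fun W => if a ∈ W then f W else 0) = 0 := by
    unfold ex
    refine Finset.sum_eq_zero fun W hW => ?_
    have : a ∉ W := fun h' => h (mem_powerset.1 hW h')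
    simp [this]
  rw [h0]
  simp only [mem_insert_self, if_true, insert_idem]
  ring

/-- planting a fixed set -/
lemma ex_subset (p : ℝ) {S V : Finset X} (hV : V ⊆ S) (f : Finset X → ℝ) :
    ex p S (fun W => if V ⊆ W then f W else 0) = p ^ V.card * ex p S (fun W => f (W ∪ V)) := by
  induction V using Finset.induction_on generalizing f with
  | empty => simp
  | insert a V ha ih =>
    have haS : a ∈ S := hV (mem_insert_self _ _)
    have hVS : V ⊆ S := (subset_insert _ _).trans hV
    have h1 : (fun W => if insert a V ⊆ W then f W else 0)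
        = fun W => if a ∈ W then (if V ⊆ W then f W else 0) else 0 := by
      funext W
      by_cases h1 : a ∈ W <;> by_cases h2 : V ⊆ W <;> simp [insert_subset_iff, h1, h2]
    rw [h1, ex_mem p haS]
    have h2 : (fun W => if V ⊆ insert a W then f (insert a W) else 0)
        = fun W => if V ⊆ W then f (insert a W) else 0 := by
      funext W
      simp only [subset_insert_iff_of_notMem ha]
    rw [h2, ih hVS, card_insert_of_notMem ha, pow_succ]
    simp only [union_insert]
    ring

/-- sprinkling -/
lemma ex_union (p p' : ℝ) (S : Finset X) (f : Finset X → ℝ) :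
    ex p S (fun W => ex p' S (fun W' => f (W ∪ W'))) = ex (p + p' - p * p') S f := by
  induction S using Finset.induction_on generalizing f with
  | empty => simp [ex_empty]
  | insert a S ha ih =>
    rw [ex_insert _ ha, ex_insert _ ha]
    simp only [ex_insert _ ha, ex_add, ex_mul, union_insert, insert_union, insert_idem]
    rw [ih f, ih (fun W => f (insert a W))]
    ring

lemma ex_zero (S : Finset X) (f : Finset X → ℝ) : ex 0 S f = f ∅ := by
  induction S using Finset.induction_on generalizing f with
  | empty => simp [ex_empty]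
  | insert a S ha ih => rw [ex_insert _ ha, ih]; ring

end Vale.Agent.P064
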