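import Vale.Agent.P064.Core
import Vale.Agent.P064.Defs

/-! From the abstract theorem to random graphs. -/

namespace Vale.Agent.P064

open Finset Pointwise MeasureTheory SimpleGraph

lemma msc (n : ℕ) : MeasurableSingletonClass (SimpleGraph (Fin n)) :=
  ⟨fun G => by
    have : ({G} : Set (SimpleGraph (Fin n))) = edgeSet ⁻¹' {G.edgeSet} := by
      ext G'; simp
    rw [this]
    exact measurable_edgeSet (measurableSet_singleton _)⟩

/-- the set of possible edges -/
def allE (n : ℕ) : Finset (Sym2 (Fin n)) := univ.filter fun e => ¬ e.IsDiag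

lemma card_allE (n : ℕ) : (allE n).card = n.choose 2 := by
  have := Sym2.card_subtype_not_diag (α := Fin n)
  rw [Fintype.card_subtype, Fintype.card_fin] at this
  exact this

lemma integral_eq_ex (n : ℕ) (p : ℝ) (hp : p ∈ Set.Icc (0 : ℝ) 1)
    (f : SimpleGraph (Fin n) → ℝ) :
    ∫ G, f G ∂(binomialRandom (Fin n) ⟨p, hp⟩)
      = ex p (allE n) (fun W => f (fromEdgeSet (W : Set (Sym2 (Fin n))))) := by
  classical
  have := msc n
  rw [integral_fintype (Integrable.of_finite), ex]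
  refine Finset.sum_bij (fun G _ => G.edgeFinset) (fun G _ => ?_) (fun G _ G' _ e => ?_)
    (fun W hW => ⟨fromEdgeSet (W : Set (Sym2 (Fin n))), mem_univ _, ?_⟩) (fun G _ => ?_)
  · refine mem_powerset.2 fun e he => ?_
    simp only [allE, mem_filter, mem_univ, true_and]
    exact G.not_isDiag_of_mem_edgeSet (mem_edgeFinset.1 he)
  · exact edgeFinset_inj.1 e
  · ext e
    have h := @mem_powerset.1 hW e
    simp only [allE, mem_filter, mem_univ, true_and] at h
    simp only [mem_edgeFinset, edgeSet_fromEdgeSet, Set.mem_sdiff, mem_coe, Sym2.mem_diagSet]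
    tauto
  · rw [measureReal_def, binomialRandom_singleton, coe_edgeFinset, fromEdgeSet_edgeSet, card_allE,
      Set.ncard_eq_toFinset_card', Nat.card_eq_fintype_card, Fintype.card_fin]
    simp [edgeFinset]

/-- permutations of the vertices act on unordered pairs -/
@[reducible] def act (n : ℕ) : MulAction (Equiv.Perm (Fin n)) (Sym2 (Fin n)) where
  smul σ e := e.map σ
  one_smul e := by
    change e.map (1 : Equiv.Perm (Fin n)) = e
    simp
  mul_smul σ τ e := by
    change e.map (σ * τ : Equiv.Perm (Fin n)) = (e.map τ).map σ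
    simp [Sym2.map_map]

attribute [local instance] act

lemma smul_mk {n : ℕ} (σ : Equiv.Perm (Fin n)) (a b : Fin n) :
    σ • (s(a, b) : Sym2 (Fin n)) = s(σ a, σ b) := rfl

variable {n : ℕ} {V : Type}

open Classical in
/-- the edges of `H`, placed on `Fin n` along an embedding -/
noncomputable def edg (H : SimpleGraph V) (ι : V ↪ Fin n) : Finset (Sym2 (Fin n)) :=
  univ.filter fun e => ∃ v w, H.Adj v w ∧ e = s(ι v, ι w)

lemma mem_edg {H : SimpleGraph V} {ι : V ↪ Fin n} {e : Sym2 (Fin n)} :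
    e ∈ edg H ι ↔ ∃ v w, H.Adj v w ∧ e = s(ι v, ι w) := by
  simp [edg]

lemma smul_edg_subset (H : SimpleGraph V) (ι : V ↪ Fin n) (σ : Equiv.Perm (Fin n)) :
    σ • edg H ι ⊆ allE n := by
  intro e he
  obtain ⟨e', he', rfl⟩ := mem_smul_finset.1 he
  obtain ⟨v, w, hvw, rfl⟩ := mem_edg.1 he'
  simp [allE, smul_mk, hvw.ne]

lemma contained_of_Fam (H : SimpleGraph V) (ι : V ↪ Fin n) (W : Finset (Sym2 (Fin n)))
    (h : Fam (Equiv.Perm (Fin n)) (edg H ι) W) :
    H ⊑ fromEdgeSet (W : Set (Sym2 (Fin n))) := by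
  obtain ⟨σ, hσ⟩ := h
  refine ⟨⟨⟨fun v => σ (ι v), fun {v w} hvw => ?_⟩, σ.injective.comp ι.injective⟩⟩
  rw [fromEdgeSet_adj]
  refine ⟨hσ (mem_smul_finset.2 ⟨s(ι v, ι w), mem_edg.2 ⟨v, w, hvw, rfl⟩, rfl⟩), ?_⟩
  simp [hvw.ne]

/-- the subgraph of `H` spanned by a set of edges, without isolated vertices -/
def sub (H : SimpleGraph V) (ι : V ↪ Fin n) (R : Finset (Sym2 (Fin n))) (hR : R ⊆ edg H ι) :
    H.Subgraph where
  verts := {v | ∃ w, s(ι v, ι w) ∈ R}
  Adj v w := s(ι v, ι w) ∈ R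
  adj_sub {v w} h := by
    obtain ⟨v', w', h', e⟩ := mem_edg.1 (hR h)
    rcases Sym2.eq_iff.1 e with ⟨h1, h2⟩ | ⟨h1, h2⟩
    · rw [ι.injective h1, ι.injective h2]; exact h'
    · rw [ι.injective h1, ι.injective h2]; exact h'.symm
  edge_vert {v w} h := ⟨w, h⟩
  symm := ⟨fun v w h => by rw [Sym2.eq_swap]; exact h⟩

lemma copyCount_le [Finite V] (H : SimpleGraph V) (ι : V ↪ Fin n) (R : Finset (Sym2 (Fin n)))
    (hR : R ⊆ edg H ι) (W : Finset (Sym2 (Fin n))) :
    (fromEdgeSet (W : Set (Sym2 (Fin n)))).copyCount (sub H ι R hR).coe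
      ≤ ((orb (Equiv.Perm (Fin n)) R).filter fun R' => R' ⊆ W).card := by
  classical
  set G := fromEdgeSet (W : Set (Sym2 (Fin n))) with hG
  set F := sub H ι R hR with hF
  unfold copyCount
  have hv : ∀ G' : G.Subgraph, Nonempty (F.coe ≃g G'.coe) → ∀ x, x ∈ G'.verts ↔ ∃ y, G'.Adj x y := by
    rintro G' ⟨e⟩ x
    refine ⟨fun hx => ?_, fun ⟨y, hy⟩ => G'.edge_vert hy⟩
    obtain ⟨⟨v, w, hw⟩, hv⟩ := e.surjective ⟨x, hx⟩
    have hw' : F.Adj v w := hw
    have h1 : F.coe.Adj ⟨v, w, hw⟩ ⟨w, F.edge_vert hw'.symm⟩ := hw'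
    have h2 := e.map_rel_iff.2 h1
    rw [show e ⟨v, w, hw⟩ = ⟨x, hx⟩ from hv] at h2
    exact ⟨_, h2⟩
  refine Finset.card_le_card_of_injOn (fun G' => univ.filter fun e => e ∈ G'.edgeSet)
    (fun G' hG' => ?_) (fun G1 h1 G2 h2 e => ?_)
  · simp only [coe_filter, mem_univ, true_and, Set.mem_ofPred_eq] at hG'
    obtain ⟨e⟩ := hG'
    obtain ⟨σ, hσ⟩ := Equiv.Perm.exists_extending_pair (fun x : F.verts => ι x)
      (fun x : F.verts => (e x : Fin n)) (ι.injective.comp Subtype.val_injective)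
      (Subtype.val_injective.comp e.injective)
    simp only [coe_filter, Set.mem_ofPred_eq]
    refine ⟨mem_image.2 ⟨σ, mem_univ _, ?_⟩, fun x hx => ?_⟩
    · ext x
      simp only [mem_filter, mem_univ, true_and, mem_smul_finset]
      constructor
      · rintro ⟨y, hy, rfl⟩
        obtain ⟨v, w, -, rfl⟩ := mem_edg.1 (hR hy)
        have hw' : F.Adj v w := hy
        have h1 : F.coe.Adj ⟨v, F.edge_vert hw'⟩ ⟨w, F.edge_vert hw'.symm⟩ := hw'
        have h2 := e.map_rel_iff.2 h1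
        rw [smul_mk, hσ ⟨v, F.edge_vert hw'⟩, hσ ⟨w, F.edge_vert hw'.symm⟩]
        exact h2
      · induction x using Sym2.ind with
        | h a b =>
          intro hab
          have hab' : G'.Adj a b := hab
          obtain ⟨v, hv⟩ := e.surjective ⟨a, G'.edge_vert hab'⟩
          obtain ⟨w, hw⟩ := e.surjective ⟨b, G'.edge_vert hab'.symm⟩
          have hv' : e v = ⟨a, G'.edge_vert hab'⟩ := hv
          have hw' : e w = ⟨b, G'.edge_vert hab'.symm⟩ := hw
          have h1 : G'.coe.Adj (e v) (e w) := by rw [hv', hw']; exact hab'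
          have h2 : F.coe.Adj v w := e.map_rel_iff.1 h1
          refine ⟨s(ι v, ι w), h2, ?_⟩
          rw [smul_mk, hσ v, hσ w, hv', hw']
    · have h1 := G'.edgeSet_subset (mem_filter.1 hx).2
      rw [hG, edgeSet_fromEdgeSet] at h1
      exact h1.1
  · simp only [coe_filter, mem_univ, true_and, Set.mem_ofPred_eq] at h1 h2
    have hadj : G1.Adj = G2.Adj := by
      ext a b
      have := Finset.ext_iff.1 e s(a, b)
      simpa using this
    refine Subgraph.ext ?_ hadj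
    ext x
    rw [hv G1 h1, hv G2 h2, hadj]

lemma sparse [Finite V] (H : SimpleGraph V) (ι : V ↪ Fin n) {q : ℝ} (hq : q ∈ Set.Icc (0 : ℝ) 1)
    (h : ∀ F : H.Subgraph,
      (1 / 2 : ℝ) ≤ ∫ G, (G.copyCount F.coe : ℝ) ∂(binomialRandom (Fin n) ⟨q, hq⟩))
    (R : Finset (Sym2 (Fin n))) (hR : R ⊆ edg H ι) :
    1 / 2 ≤ ((orb (Equiv.Perm (Fin n)) R).card : ℝ) * q ^ R.card := by
  refine (h (sub H ι R hR)).trans ?_
  rw [integral_eq_ex]
  calc _ ≤ ex q (allE n) (fun W => ∑ R' ∈ orb (Equiv.Perm (Fin n)) R,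
          if R' ⊆ W then (1 : ℝ) else 0) := by
        refine ex_mono hq.1 hq.2 _ fun W => ?_
        rw [Finset.sum_boole]
        exact_mod_cast copyCount_le H ι R hR W
    _ = ∑ R' ∈ orb (Equiv.Perm (Fin n)) R, q ^ R.card := by
        rw [ex_sum]
        refine Finset.sum_congr rfl fun R' hR' => ?_
        obtain ⟨σ, -, rfl⟩ := mem_image.1 hR'
        rw [ex_subset q ((smul_finset_subset_smul_finset hR).trans (smul_edg_subset H ι σ))
          (fun _ => 1), ex_const, card_smul_finset, mul_one]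
    _ = _ := by rw [Finset.sum_const, nsmul_eq_mul]

lemma pc_le (H : SimpleGraph V) {p : ℝ} (hp : p ∈ Set.Icc (0 : ℝ) 1)
    (h : (1 / 2 : ℝ) ≤ (binomialRandom (Fin n) ⟨p, hp⟩).real {G | 0 < G.copyCount H}) :
    pc n H ≤ p :=
  csInf_le ⟨0, fun _ ⟨hx, _⟩ => hx.1⟩ ⟨hp, h⟩

lemma pc_le_one (H : SimpleGraph V) (ι : V ↪ Fin n) : pc n H ≤ 1 := by
  refine pc_le H ⟨zero_le_one, le_rfl⟩ ?_
  have := msc n
  have e : (⟨1, ⟨zero_le_one, le_rfl⟩⟩ : unitInterval) = 1 := rfl
  rw [e, binomialRandom_one, measureReal_def, Measure.dirac_apply_of_mem]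
  · norm_num
  · exact copyCount_pos.2 (isContained_top_iff.2 ⟨ι⟩)

lemma pc_le_of_sparse [Finite V] (H : SimpleGraph V) (ι : V ↪ Fin n) (hH : H.edgeSet.Nonempty)
    (J : ℕ) (hJ : n < 2 ^ J) {q : ℝ} (hq : q ∈ Set.Icc (0 : ℝ) 1)
    (h : ∀ F : H.Subgraph,
      (1 / 2 : ℝ) ≤ ∫ G, (G.copyCount F.coe : ℝ) ∂(binomialRandom (Fin n) ⟨q, hq⟩)) :
    pc n H ≤ (6 * J + 4) * (2 ^ 35 * q) := by
  have hs := sparse H ι hq h
  have hq0 : 0 < q := by
    obtain ⟨e, he⟩ := hH
    induction e using Sym2.ind with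
    | h v w =>
      have h1 := hs {s(ι v, ι w)} (singleton_subset_iff.2 (mem_edg.2 ⟨v, w, he, rfl⟩))
      rcases hq.1.lt_or_eq with h2 | h2
      · exact h2
      · rw [← h2] at h1
        norm_num at h1
  by_cases hq1 : 2 ^ 35 * q ≤ 1
  · have hcard : (edg H ι).card < 8 ^ J := by
      have h1 : (edg H ι).card ≤ n.choose 2 := by
        rw [← card_allE]
        refine card_le_card ?_
        simpa using smul_edg_subset H ι 1
      have h2 : n.choose 2 ≤ n ^ 2 := Nat.choose_le_pow n 2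
      have h3 : n ^ 2 < (2 ^ J) ^ 2 := Nat.pow_lt_pow_left hJ (by norm_num)
      have h4 : (2 ^ J) ^ 2 ≤ 8 ^ J := by
        rw [← pow_mul, mul_comm, pow_mul]
        exact Nat.pow_le_pow_left (by norm_num) _
      omega
    obtain ⟨p, hp0, hp1, hp2, hp3⟩ := abstract (G := Equiv.Perm (Fin n)) hq0 hq1 J (edg H ι) hcard
      (smul_edg_subset H ι) hs
    have hp : p ∈ Set.Icc (0 : ℝ) 1 := ⟨hp0, hp1⟩
    refine (pc_le H hp (hp3.trans ?_)).trans hp2
    have := msc n
    rw [← integral_indicator_one (Set.toFinite _).measurableSet, integral_eq_ex n p hp]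
    refine ex_mono hp0 hp1 _ fun W => ?_
    by_cases hW : Fam (Equiv.Perm (Fin n)) (edg H ι) W
    · rw [ind_pos hW, Set.indicator_of_mem]
      · rfl
      · exact copyCount_pos.2 (contained_of_Fam H ι W hW)
    · rw [ind_neg hW]
      exact Set.indicator_nonneg (fun _ _ => zero_le_one) _
  · refine (pc_le_one H ι).trans ?_
    have : (0 : ℝ) ≤ J := Nat.cast_nonneg _
    nlinarith [not_le.1 hq1]

theorem main (hn : 2 ≤ n) [Fintype V] (H : SimpleGraph V) (hV : Fintype.card V ≤ n)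
    (hH : H.edgeSet.Nonempty) : pc n H ≤ 2 ^ 40 * pE n H * Real.log n := by
  obtain ⟨ι⟩ : Nonempty (V ↪ Fin n) :=
    Function.Embedding.nonempty_of_card_le (by rwa [Fintype.card_fin])
  have hn' : (2 : ℝ) ≤ n := by exact_mod_cast hn
  have hl2 : (1 / 2 : ℝ) < Real.log 2 := by linarith [Real.log_two_gt_d9]
  have hl : Real.log 2 ≤ Real.log n := Real.log_le_log (by norm_num) hn'
  have hJ : ((Nat.log 2 n : ℕ) : ℝ) * Real.log 2 ≤ Real.log n := by
    rw [← Real.log_pow]
    refine Real.log_le_log (by positivity) ?_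
    exact_mod_cast Nat.pow_log_le_self 2 (by omega)
  have hJ0 : (0 : ℝ) ≤ (Nat.log 2 n : ℕ) := Nat.cast_nonneg _
  have hJ' : (6 * ((Nat.log 2 n + 1 : ℕ) : ℝ) + 4) ≤ 32 * Real.log n := by
    push_cast
    nlinarith
  have hpos : (0 : ℝ) < 2 ^ 40 * Real.log n := by
    have : 0 < Real.log n := by linarith
    positivity
  rw [mul_right_comm, mul_comm, ← div_le_iff₀ hpos]
  refine le_csInf ⟨1, ⟨zero_le_one, le_rfl⟩, fun F => ?_⟩ ?_
  · have := msc n
    have e : (⟨1, ⟨zero_le_one, le_rfl⟩⟩ : unitInterval) = 1 := rfl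
    rw [e, binomialRandom_one, integral_dirac]
    have h1 : 0 < (⊤ : SimpleGraph (Fin n)).copyCount F.coe :=
      copyCount_pos.2 (isContained_top_iff.2 ⟨(Function.Embedding.subtype _).trans ι⟩)
    have h2 : (1 : ℝ) ≤ (⊤ : SimpleGraph (Fin n)).copyCount F.coe := by exact_mod_cast h1
    linarith
  · rintro q ⟨hq, h⟩
    rw [div_le_iff₀ hpos]
    refine (pc_le_of_sparse H ι hH (Nat.log 2 n + 1) (Nat.lt_pow_succ_log_self (by norm_num) n)
      hq h).trans ?_
    calc _ ≤ 32 * Real.log n * (2 ^ 35 * q) :=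
          mul_le_mul_of_nonneg_right hJ' (mul_nonneg (by norm_num) hq.1)
      _ = _ := by ring

end Vale.Agent.P064
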