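import Vale.Agent.P064.Ex

/-! One level of a tree of spread measures, and the halving step for one level. -/

namespace Vale.Agent.P064

open Finset

variable {X : Type*} [DecidableEq X]

open Classical in
/-- indicator of a proposition -/
noncomputable def ind (P : Prop) : ℝ := if P then 1 else 0

lemma ind_nonneg (P : Prop) : 0 ≤ ind P := by
  unfold ind; split_ifs <;> norm_num

lemma ind_le_one (P : Prop) : ind P ≤ 1 := by
  unfold ind; split_ifs <;> norm_num

lemma ind_pos {P : Prop} (h : P) : ind P = 1 := by simp [ind, h]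

lemma ind_neg {P : Prop} (h : ¬ P) : ind P = 0 := by simp [ind, h]

lemma ind_mono {P Q : Prop} (h : P → Q) : ind P ≤ ind Q := by
  by_cases hP : P
  · rw [ind_pos hP, ind_pos (h hP)]
  · rw [ind_neg hP]; exact ind_nonneg _

/-- One level: a spread probability measure on labels of size at most `s`, each of which
brings the base set `B` into the family `𝓖`. -/
def Phi (ι : Type*) [Fintype ι] (S : Finset X) (ρ : ℝ) (s : ℕ) (𝓖 : Finset X → Prop)
    (B : Finset X) : Prop :=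
  ∃ (μ : ι → ℝ) (A : ι → Finset X), (∀ i, 0 ≤ μ i) ∧ ∑ i, μ i = 1 ∧
    (∀ i, μ i ≠ 0 → A i ⊆ S ∧ (A i).card ≤ s ∧ 𝓖 (B ∪ A i)) ∧
    ∀ U : Finset X, U.Nonempty →
      ∑ i, (if U ⊆ A i then μ i else 0) ≤ (1 + 1 / (s : ℝ)) * ρ ^ U.card

variable {ι : Type*} [Fintype ι] {S : Finset X} {ρ p : ℝ}

lemma kappa_le (s : ℕ) (hs : 2 ≤ s) :
    (1 + 1 / (s : ℝ)) ≤ (1 + 1 / ((s / 2 : ℕ) : ℝ)) * (1 - (1 / 4 : ℝ) ^ s) := by
  have h1 : ((s / 2 : ℕ) : ℝ) ≤ (s : ℝ) / 2 := Nat.cast_div_le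
  have h2 : (0 : ℝ) < ((s / 2 : ℕ) : ℝ) := by
    have : 0 < s / 2 := by omega
    exact_mod_cast this
  have hs0 : (0 : ℝ) < s := by
    have : 0 < s := by omega
    exact_mod_cast this
  have h3 : 2 / (s : ℝ) ≤ 1 / ((s / 2 : ℕ) : ℝ) := by
    rw [div_le_div_iff₀ hs0 h2]; linarith
  have h4 : (s : ℝ) + 2 ≤ 4 ^ s := by
    have := one_add_mul_le_pow (a := (3 : ℝ)) (by norm_num) s
    have h' : (2 : ℝ) ≤ s := by exact_mod_cast hs
    norm_num at this
    linarith
  have h5 : (1 / 4 : ℝ) ^ s ≤ 1 / ((s : ℝ) + 2) := by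
    rw [one_div_pow]
    exact one_div_le_one_div_of_le (by linarith) h4
  have h6 : (1 / 4 : ℝ) ^ s ≤ 1 := pow_le_one₀ (by norm_num) (by norm_num)
  calc (1 + 1 / (s : ℝ)) = (1 + 2 / (s : ℝ)) * (1 - 1 / ((s : ℝ) + 2)) := by
        field_simp; ring
    _ ≤ (1 + 2 / (s : ℝ)) * (1 - (1 / 4 : ℝ) ^ s) := by
        apply mul_le_mul_of_nonneg_left (by linarith) (by positivity)
    _ ≤ _ := by
        apply mul_le_mul_of_nonneg_right (by linarith) (by linarith)

/-- if few labels fail, the level can be rebuilt with labels of half the size -/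
lemma reroute (hρ : 0 ≤ ρ) {s : ℕ} (hs : 1 ≤ s) (good : Finset X → Prop) (Y : Finset X)
    (μ : ι → ℝ) (A : ι → Finset X) (hμ : ∀ i, 0 ≤ μ i) (hsum : ∑ i, μ i = 1)
    (hA : ∀ i, μ i ≠ 0 → A i ⊆ S)
    (hspread : ∀ U : Finset X, U.Nonempty →
      ∑ i, (if U ⊆ A i then μ i else 0) ≤ (1 + 1 / (s : ℝ)) * ρ ^ U.card)
    (hfail : ∑ i, μ i * ind (¬ ∃ A', A' ⊆ A i ∧ A'.card ≤ s / 2 ∧ good (Y ∪ A'))
      ≤ (1 / 4 : ℝ) ^ s) :
    Phi ι S ρ (s / 2) good Y := by
  classical
  set suc : ι → Prop := fun i => ∃ A', A' ⊆ A i ∧ A'.card ≤ s / 2 ∧ good (Y ∪ A') with hsuc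
  have hch : ∀ i, ∃ A', suc i → A' ⊆ A i ∧ A'.card ≤ s / 2 ∧ good (Y ∪ A') := by
    intro i
    by_cases h : suc i
    · obtain ⟨A', hA'⟩ := h
      exact ⟨A', fun _ => hA'⟩
    · exact ⟨∅, fun h' => absurd h' h⟩
  choose A' hA' using hch
  set m : ℝ := ∑ i, μ i * ind (suc i) with hm
  have hm1 : m + ∑ i, μ i * ind (¬ suc i) = 1 := by
    rw [hm, ← Finset.sum_add_distrib, ← hsum]
    refine Finset.sum_congr rfl fun i _ => ?_
    by_cases h : suc i
    · rw [ind_pos h, ind_neg (not_not.2 h)]; ring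
    · rw [ind_neg h, ind_pos h]; ring
  have hq : (1 / 4 : ℝ) ^ s ≤ 1 / 4 := by
    calc (1 / 4 : ℝ) ^ s ≤ (1 / 4 : ℝ) ^ 1 :=
          pow_le_pow_of_le_one (by norm_num) (by norm_num) hs
      _ = 1 / 4 := pow_one _
  have hm2 : 1 - (1 / 4 : ℝ) ^ s ≤ m := by linarith
  have hm0 : 0 < m := by linarith
  refine ⟨fun i => μ i * ind (suc i) / m, A', fun i => ?_, ?_, fun i hi => ?_, fun U hU => ?_⟩
  · exact div_nonneg (mul_nonneg (hμ i) (ind_nonneg _)) hm0.le
  · rw [← Finset.sum_div, ← hm, div_self hm0.ne']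
  · have h1 : suc i := by
      by_contra h
      exact hi (by simp [ind_neg h])
    have h2 : μ i ≠ 0 := by
      intro h
      exact hi (by simp [h])
    exact ⟨(hA' i h1).1.trans (hA i h2), (hA' i h1).2.1, (hA' i h1).2.2⟩
  · rcases Nat.lt_or_ge s 2 with h2 | h2
    · have h0 : ∑ i, (if U ⊆ A' i then μ i * ind (suc i) / m else 0) = 0 := by
        refine Finset.sum_eq_zero fun i _ => ?_
        split_ifs with h
        · by_cases h1 : suc i
          · have := (card_le_card h).trans (hA' i h1).2.1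
            have := hU.card_pos
            omega
          · simp [ind_neg h1]
        · rfl
      rw [h0]
      positivity
    · calc ∑ i, (if U ⊆ A' i then μ i * ind (suc i) / m else 0)
          ≤ ∑ i, (if U ⊆ A i then μ i else 0) / m := by
            refine Finset.sum_le_sum fun i _ => ?_
            by_cases h1 : suc i
            · rw [ind_pos h1, mul_one]
              by_cases h : U ⊆ A' i
              · rw [if_pos h, if_pos (h.trans (hA' i h1).1)]
              · rw [if_neg h]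
                refine div_nonneg ?_ hm0.le
                split_ifs
                exacts [hμ i, le_rfl]
            · rw [ind_neg h1, mul_zero, zero_div, ite_self]
              refine div_nonneg ?_ hm0.le
              split_ifs
              exacts [hμ i, le_rfl]
        _ ≤ (1 + 1 / (s : ℝ)) * ρ ^ U.card / m := by
            rw [← Finset.sum_div]
            exact div_le_div_of_nonneg_right (hspread U hU) hm0.le
        _ ≤ _ := by
            rw [div_le_iff₀ hm0]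
            have h3 := kappa_le s h2
            have h4 : (1 + 1 / (s : ℝ)) ≤ (1 + 1 / ((s / 2 : ℕ) : ℝ)) * m :=
              h3.trans (mul_le_mul_of_nonneg_left hm2 (by positivity))
            have h5 : 0 ≤ ρ ^ U.card := by positivity
            nlinarith

/-- overlap of a spread label with a fixed set -/
lemma overlap {s : ℕ} (hρ : 0 ≤ ρ) (hs : 1 ≤ s)
    (μ : ι → ℝ) (A : ι → Finset X) (hμ : ∀ i, 0 ≤ μ i) (hsum : ∑ i, μ i = 1)
    (hspread : ∀ U : Finset X, U.Nonempty →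
      ∑ i, (if U ⊆ A i then μ i else 0) ≤ (1 + 1 / (s : ℝ)) * ρ ^ U.card)
    (φ : ℕ → ℝ) (hφ : ∀ u, 0 ≤ φ u) (A' : Finset X) :
    ∑ i, μ i * φ (A' ∩ A i).card ≤ ∑ U ∈ A'.powerset, φ U.card * (2 * ρ) ^ U.card := by
  calc ∑ i, μ i * φ (A' ∩ A i).card
      ≤ ∑ i, ∑ U ∈ A'.powerset, φ U.card * (if U ⊆ A i then μ i else 0) := by
        refine Finset.sum_le_sum fun i _ => ?_
        have hmem : A' ∩ A i ∈ A'.powerset := mem_powerset.2 inter_subset_left
        refine le_trans (le_of_eq ?_) (Finset.single_le_sum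
          (f := fun U => φ U.card * (if U ⊆ A i then μ i else 0)) (fun U _ => ?_) hmem)
        · simp only [inter_subset_right, if_true]; ring
        · refine mul_nonneg (hφ _) ?_
          split_ifs
          exacts [hμ i, le_rfl]
    _ = ∑ U ∈ A'.powerset, φ U.card * ∑ i, (if U ⊆ A i then μ i else 0) := by
        rw [Finset.sum_comm]
        simp only [Finset.mul_sum]
    _ ≤ _ := by
        refine Finset.sum_le_sum fun U _ => mul_le_mul_of_nonneg_left ?_ (hφ _)
        rcases U.eq_empty_or_nonempty with rfl | hU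
        · simp [hsum]
        · refine (hspread U hU).trans ?_
          have h1 : 1 / (s : ℝ) ≤ 1 := by
            rw [div_le_one (by positivity)]
            exact_mod_cast hs
          have h2 : (2 : ℝ) ≤ 2 ^ U.card := by
            calc (2 : ℝ) = 2 ^ 1 := by norm_num
              _ ≤ 2 ^ U.card := pow_le_pow_right₀ (by norm_num) hU.card_pos
          rw [mul_pow]
          exact mul_le_mul_of_nonneg_right (by linarith) (by positivity)

omit [DecidableEq X] in
lemma numeric {s : ℕ} (hs : 1 ≤ s) (A' : Finset X) (hA' : A'.card ≤ s) :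
    ∑ U ∈ A'.powerset, ((1 / 4 : ℝ) ^ (8 * s) + ind (s / 2 < U.card)) * (1 / 2 ^ 24) ^ U.card
      ≤ 2 * (1 / 2) ^ (11 * s) := by
  have h1 : ∀ U ∈ A'.powerset,
      ((1 / 4 : ℝ) ^ (8 * s) + ind (s / 2 < U.card)) * (1 / 2 ^ 24) ^ U.card
        ≤ 2 * (1 / 2) ^ (12 * s) := by
    intro U _
    have ha : (1 / 4 : ℝ) ^ (8 * s) * (1 / 2 ^ 24) ^ U.card ≤ (1 / 2) ^ (12 * s) := by
      have e : (1 / 4 : ℝ) ^ (8 * s) = (1 / 2) ^ (16 * s) := by
        rw [show (1 / 4 : ℝ) = (1 / 2) ^ 2 by norm_num, ← pow_mul]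
        congr 1; ring
      rw [e]
      calc (1 / 2 : ℝ) ^ (16 * s) * (1 / 2 ^ 24) ^ U.card ≤ (1 / 2) ^ (16 * s) * 1 :=
            mul_le_mul_of_nonneg_left (pow_le_one₀ (by norm_num) (by norm_num)) (by positivity)
        _ ≤ (1 / 2) ^ (12 * s) := by
            rw [mul_one]
            exact pow_le_pow_of_le_one (by norm_num) (by norm_num) (by omega)
    have hb : ind (s / 2 < U.card) * (1 / 2 ^ 24 : ℝ) ^ U.card ≤ (1 / 2) ^ (12 * s) := by
      by_cases h : s / 2 < U.card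
      · rw [ind_pos h, one_mul, ← one_div_pow, ← pow_mul]
        exact pow_le_pow_of_le_one (by norm_num) (by norm_num) (by omega)
      · rw [ind_neg h, zero_mul]; positivity
    rw [add_mul]; linarith
  refine (Finset.sum_le_card_nsmul _ _ _ h1).trans ?_
  rw [card_powerset, nsmul_eq_mul]
  have h2 : ((2 ^ A'.card : ℕ) : ℝ) ≤ 2 ^ s := by
    exact_mod_cast Nat.pow_le_pow_right (by norm_num) hA'
  have h3 : (1 / 2 : ℝ) ^ (11 * s) = 2 ^ s * (1 / 2) ^ (12 * s) := by
    rw [show 12 * s = s + 11 * s by ring, pow_add, ← mul_assoc, ← mul_pow]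
    norm_num
  rw [h3]
  have h4 : (0 : ℝ) ≤ (1 / 2) ^ (12 * s) := by positivity
  nlinarith

/-- normalised weight of the labels contained in `Y` -/
noncomputable def Zw (p : ℝ) (μ : ι → ℝ) (A : ι → Finset X) (Y : Finset X) : ℝ :=
  ∑ j, μ j * (p ^ (A j).card)⁻¹ * (if A j ⊆ Y then 1 else 0)

/-- normalised weight of the useless labels contained in `W ∪ A i` -/
noncomputable def Rw (p : ℝ) (s : ℕ) (good : Finset X → Prop) (B : Finset X) (μ : ι → ℝ)
    (A : ι → Finset X) (i : ι) (W : Finset X) : ℝ :=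
  ∑ j, μ j * (p ^ (A j).card)⁻¹ *
    (if A j \ A i ⊆ W then ind (¬ good (B ∪ A j ∪ W)) + ind (s / 2 < (A j ∩ A i).card) else 0)

lemma Rw_nonneg (hp : 0 < p) (s : ℕ) (good : Finset X → Prop) (B : Finset X) (μ : ι → ℝ)
    (A : ι → Finset X) (hμ : ∀ i, 0 ≤ μ i) (i : ι) (W : Finset X) :
    0 ≤ Rw p s good B μ A i W := by
  refine Finset.sum_nonneg fun j _ => mul_nonneg (mul_nonneg (hμ j) (by positivity)) ?_
  split_ifs
  exacts [add_nonneg (ind_nonneg _) (ind_nonneg _), le_rfl]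

lemma fail_le (hp : 0 < p) (s : ℕ) (good : Finset X → Prop) (hgood : Monotone good)
    (B : Finset X) (μ : ι → ℝ) (A : ι → Finset X) (hμ : ∀ i, 0 ≤ μ i) {ε : ℝ} (hε : 0 < ε)
    (i : ι) (W : Finset X) :
    ind (¬ ∃ A', A' ⊆ A i ∧ A'.card ≤ s / 2 ∧ good (B ∪ W ∪ A'))
      ≤ ind (Zw p μ A (W ∪ A i) ≤ ε) + ε⁻¹ * Rw p s good B μ A i W := by
  have hR := Rw_nonneg hp s good B μ A hμ i W
  by_cases h : ∃ A', A' ⊆ A i ∧ A'.card ≤ s / 2 ∧ good (B ∪ W ∪ A')
  · rw [ind_neg (not_not.2 h)]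
    exact add_nonneg (ind_nonneg _) (by positivity)
  rw [ind_pos h]
  by_cases hZ : Zw p μ A (W ∪ A i) ≤ ε
  · rw [ind_pos hZ]
    have : 0 ≤ ε⁻¹ * Rw p s good B μ A i W := by positivity
    linarith
  rw [ind_neg hZ, zero_add]
  have h1 : Zw p μ A (W ∪ A i) ≤ Rw p s good B μ A i W := by
    refine Finset.sum_le_sum fun j _ => mul_le_mul_of_nonneg_left ?_
      (mul_nonneg (hμ j) (by positivity))
    by_cases h2 : A j ⊆ W ∪ A i
    · have h3 : A j \ A i ⊆ W := by
        intro x hx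
        rw [mem_sdiff] at hx
        exact (mem_union.1 (h2 hx.1)).resolve_right hx.2
      rw [if_pos h2, if_pos h3]
      by_cases h4 : s / 2 < (A j ∩ A i).card
      · rw [ind_pos h4]
        linarith [ind_nonneg (¬ good (B ∪ A j ∪ W))]
      · have h5 : ¬ good (B ∪ A j ∪ W) := by
          intro hg
          refine h ⟨A j ∩ A i, inter_subset_right, not_lt.1 h4, hgood ?_ hg⟩
          intro x hx
          have h6 := @h2 x
          simp only [mem_union, mem_inter] at hx h6 ⊢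
          tauto
        rw [ind_pos h5]
        linarith [ind_nonneg (s / 2 < (A j ∩ A i).card)]
    · rw [if_neg h2]
      split_ifs
      exacts [add_nonneg (ind_nonneg _) (ind_nonneg _), le_rfl]
  rw [← div_eq_inv_mul, le_div_iff₀ hε]
  linarith [not_le.1 hZ]

lemma planted (hp : 0 < p) (hp1 : p ≤ 1) (μ : ι → ℝ) (A : ι → Finset X)
    (hA : ∀ i, μ i ≠ 0 → A i ⊆ S) {ε : ℝ} (hε : 0 ≤ ε) :
    ∑ i, μ i * ex p S (fun W => ind (Zw p μ A (W ∪ A i) ≤ ε)) ≤ ε := by
  have h1 : ∀ i, μ i * ex p S (fun W => ind (Zw p μ A (W ∪ A i) ≤ ε))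
      = ex p S (fun W => μ i * (p ^ (A i).card)⁻¹ *
          (if A i ⊆ W then ind (Zw p μ A W ≤ ε) else 0)) := by
    intro i
    by_cases hi : μ i = 0
    · simp [hi, ex_const]
    · rw [ex_mul, ex_subset p (hA i hi) (fun W => ind (Zw p μ A W ≤ ε))]
      have : p ^ (A i).card ≠ 0 := by positivity
      field_simp
  simp only [h1]
  rw [← ex_sum]
  refine (ex_mono hp.le hp1 S (g := fun _ => ε) fun W => ?_).trans (ex_const _ _ _).le
  by_cases h : Zw p μ A W ≤ ε
  · rw [ind_pos h]; exact h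
  · rw [ind_neg h]; simpa using hε

lemma ex_Rw (hp : 0 < p) (hp1 : p ≤ 1) (s : ℕ) (good : Finset X → Prop) (hgood : Monotone good)
    (B : Finset X) (μ : ι → ℝ) (A : ι → Finset X) (hμ : ∀ i, 0 ≤ μ i) {β : ℝ}
    (hA : ∀ i, μ i ≠ 0 → A i ⊆ S ∧ ex p S (fun W => ind (¬ good (B ∪ A i ∪ W))) ≤ β) (i : ι) :
    ex p S (Rw p s good B μ A i)
      ≤ ∑ j, μ j * ((β + ind (s / 2 < (A j ∩ A i).card)) * p⁻¹ ^ (A j ∩ A i).card) := by
  unfold Rw
  rw [ex_sum]
  refine Finset.sum_le_sum fun j _ => ?_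
  by_cases hj : μ j = 0
  · simp [hj, ex_const]
  rw [ex_mul, ex_subset p (sdiff_subset.trans (hA j hj).1)
    (fun W => ind (¬ good (B ∪ A j ∪ W)) + ind (s / 2 < (A j ∩ A i).card)), ex_add, ex_const,
    mul_assoc]
  refine mul_le_mul_of_nonneg_left ?_ (hμ j)
  have h1 : ex p S (fun W => ind (¬ good (B ∪ A j ∪ (W ∪ A j \ A i)))) ≤ β := by
    refine le_trans (ex_mono hp.le hp1 S fun W => ?_) (hA j hj).2
    refine ind_mono fun h h' => h (hgood ?_ h')
    exact union_subset_union (subset_refl _) subset_union_left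
  have h2 : (p ^ (A j).card)⁻¹ * p ^ (A j \ A i).card = p⁻¹ ^ (A j ∩ A i).card := by
    rw [← Finset.card_sdiff_add_card_inter (A j) (A i), pow_add, inv_pow]
    have : p ^ (A j \ A i).card ≠ 0 := by positivity
    field_simp
  rw [← mul_assoc, h2, mul_comm]
  exact mul_le_mul_of_nonneg_right (by linarith) (by positivity)

/-- one sprinkle halves one level, provided it is very likely to succeed below each label -/
lemma step (hρ : 0 < ρ) (hp : p = 2 ^ 25 * ρ) (hp1 : p ≤ 1) {s : ℕ} (hs : 1 ≤ s)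
    (𝓖 good : Finset X → Prop) (hgood : Monotone good)
    (hβ : ∀ Y, 𝓖 Y → ex p S (fun W => ind (¬ good (Y ∪ W))) ≤ (1 / 4) ^ (8 * s))
    (B : Finset X) (h : Phi ι S ρ s 𝓖 B) :
    ex p S (fun W => ind (¬ Phi ι S ρ (s / 2) good (B ∪ W))) ≤ (1 / 4) ^ s := by
  obtain ⟨μ, A, hμ, hsum, hA, hspread⟩ := h
  have hp0 : 0 < p := by rw [hp]; positivity
  set x : ℝ := (1 / 2) ^ s with hx
  have hx0 : 0 < x := by positivity
  have hx1 : x ≤ 1 / 2 := by
    calc x ≤ (1 / 2 : ℝ) ^ 1 := pow_le_pow_of_le_one (by norm_num) (by norm_num) hs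
      _ = 1 / 2 := pow_one _
  have hx2 : (1 / 4 : ℝ) ^ s = x ^ 2 := by
    rw [hx, ← pow_mul, mul_comm, pow_mul]; norm_num
  have hx11 : (1 / 2 : ℝ) ^ (11 * s) = x ^ 11 := by
    rw [hx, ← pow_mul, mul_comm]
  set ε : ℝ := x ^ 4 / 2 with hε
  have hε0 : 0 < ε := by positivity
  set F : Finset X → ℝ := fun W =>
    ∑ i, μ i * ind (¬ ∃ A', A' ⊆ A i ∧ A'.card ≤ s / 2 ∧ good (B ∪ W ∪ A')) with hF
  have hF0 : ∀ W, 0 ≤ F W := fun W =>
    Finset.sum_nonneg fun i _ => mul_nonneg (hμ i) (ind_nonneg _)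
  have hmarkov : ∀ W, ind (¬ Phi ι S ρ (s / 2) good (B ∪ W)) ≤ (x ^ 2)⁻¹ * F W := by
    intro W
    by_cases h1 : F W ≤ (1 / 4 : ℝ) ^ s
    · rw [ind_neg (not_not.2 (reroute hρ.le hs good (B ∪ W) μ A hμ hsum
        (fun i hi => (hA i hi).1) hspread h1))]
      exact mul_nonneg (by positivity) (hF0 W)
    · refine (ind_le_one _).trans ?_
      rw [← div_eq_inv_mul, le_div_iff₀ (by positivity), ← hx2]
      linarith [not_le.1 h1]
  have hR : ∑ i, μ i * ex p S (Rw p s good B μ A i) ≤ 2 * x ^ 11 := by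
    calc ∑ i, μ i * ex p S (Rw p s good B μ A i)
        ≤ ∑ i, μ i * ∑ j, μ j * (((1 / 4) ^ (8 * s) + ind (s / 2 < (A j ∩ A i).card))
            * p⁻¹ ^ (A j ∩ A i).card) :=
          Finset.sum_le_sum fun i _ => mul_le_mul_of_nonneg_left
            (ex_Rw hp0 hp1 s good hgood B μ A hμ
              (fun j hj => ⟨(hA j hj).1, hβ _ (hA j hj).2.2⟩) i) (hμ i)
      _ = ∑ j, μ j * ∑ i, μ i * (((1 / 4) ^ (8 * s) + ind (s / 2 < (A j ∩ A i).card))
            * p⁻¹ ^ (A j ∩ A i).card) := by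
          simp only [Finset.mul_sum]
          rw [Finset.sum_comm]
          refine Finset.sum_congr rfl fun j _ => Finset.sum_congr rfl fun i _ => by ring
      _ ≤ ∑ j, μ j * (2 * x ^ 11) := by
          refine Finset.sum_le_sum fun j _ => ?_
          by_cases hj : μ j = 0
          · simp [hj]
          refine mul_le_mul_of_nonneg_left ?_ (hμ j)
          refine (overlap hρ.le hs μ A hμ hsum hspread
            (fun u => ((1 / 4) ^ (8 * s) + ind (s / 2 < u)) * p⁻¹ ^ u)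
            (fun u => mul_nonneg (add_nonneg (by positivity) (ind_nonneg _)) (by positivity))
            (A j)).trans ?_
          rw [← hx11]
          refine le_trans (le_of_eq ?_) (numeric hs (A j) (hA j hj).2.1)
          refine Finset.sum_congr rfl fun U _ => ?_
          rw [mul_assoc, ← mul_pow]
          congr 2
          rw [hp]
          field_simp
      _ = 2 * x ^ 11 := by rw [← Finset.sum_mul, hsum, one_mul]
  have hEF : ex p S F ≤ x ^ 4 := by
    calc ex p S F ≤ ex p S (fun W => ∑ i, μ i *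
            (ind (Zw p μ A (W ∪ A i) ≤ ε) + ε⁻¹ * Rw p s good B μ A i W)) :=
          ex_mono hp0.le hp1 S fun W => Finset.sum_le_sum fun i _ =>
            mul_le_mul_of_nonneg_left (fail_le hp0 s good hgood B μ A hμ hε0 i W) (hμ i)
      _ = ∑ i, μ i * ex p S (fun W => ind (Zw p μ A (W ∪ A i) ≤ ε))
            + ε⁻¹ * ∑ i, μ i * ex p S (Rw p s good B μ A i) := by
          rw [ex_sum, Finset.mul_sum, ← Finset.sum_add_distrib]
          refine Finset.sum_congr rfl fun i _ => ?_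
          rw [ex_mul, ex_add, ex_mul]
          ring
      _ ≤ ε + ε⁻¹ * (2 * x ^ 11) :=
          add_le_add (planted hp0 hp1 μ A (fun i hi => (hA i hi).1) hε0.le)
            (mul_le_mul_of_nonneg_left hR (by positivity))
      _ = x ^ 4 / 2 + 4 * x ^ 3 * x ^ 4 := by
          rw [hε]; field_simp; ring
      _ ≤ x ^ 4 := by
          have h3 : x ^ 3 ≤ (1 / 2) ^ 3 := pow_le_pow_left₀ hx0.le hx1 3
          have h4 : 0 ≤ x ^ 4 := by positivity
          nlinarith
  calc ex p S (fun W => ind (¬ Phi ι S ρ (s / 2) good (B ∪ W)))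
      ≤ ex p S (fun W => (x ^ 2)⁻¹ * F W) := ex_mono hp0.le hp1 S hmarkov
    _ = (x ^ 2)⁻¹ * ex p S F := ex_mul _ _ _ _
    _ ≤ (x ^ 2)⁻¹ * x ^ 4 := mul_le_mul_of_nonneg_left hEF (by positivity)
    _ = (1 / 4) ^ s := by rw [hx2]; field_simp

end Vale.Agent.P064
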