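import Vale.Agent.P064.Step

/-! Trees of spread measures; one sprinkle halves all levels; repeated sprinkling. -/

namespace Vale.Agent.P064

open Finset

variable {X : Type*} [DecidableEq X]

/-- a tree of spread measures with label sizes given by the list `L`, ending in `𝓕` -/
def Tr (ι : Type*) [Fintype ι] (S : Finset X) (ρ : ℝ) (L : List ℕ) (𝓕 : Finset X → Prop) :
    Finset X → Prop :=
  L.foldr (Phi ι S ρ) 𝓕

variable {ι : Type*} [Fintype ι] {S : Finset X} {ρ p : ℝ}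

lemma Phi_mono_fam {s : ℕ} {𝓕 𝓖 : Finset X → Prop} (h : ∀ B, 𝓕 B → 𝓖 B) (B : Finset X)
    (hB : Phi ι S ρ s 𝓕 B) : Phi ι S ρ s 𝓖 B := by
  obtain ⟨μ, A, h1, h2, h3, h4⟩ := hB
  exact ⟨μ, A, h1, h2, fun i hi => ⟨(h3 i hi).1, (h3 i hi).2.1, h _ (h3 i hi).2.2⟩, h4⟩

lemma Phi_mono {s : ℕ} {𝓕 : Finset X → Prop} (h : Monotone 𝓕) : Monotone (Phi ι S ρ s 𝓕) := by
  intro B B' hB ⟨μ, A, h1, h2, h3, h4⟩
  exact ⟨μ, A, h1, h2, fun i hi => ⟨(h3 i hi).1, (h3 i hi).2.1,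
    h (union_subset_union hB (subset_refl _)) (h3 i hi).2.2⟩, h4⟩

lemma Tr_mono_fam (L : List ℕ) {𝓕 𝓖 : Finset X → Prop} (h : ∀ B, 𝓕 B → 𝓖 B) :
    ∀ B, Tr ι S ρ L 𝓕 B → Tr ι S ρ L 𝓖 B := by
  induction L with
  | nil => exact h
  | cons s L ih => exact Phi_mono_fam ih

lemma Tr_mono (L : List ℕ) {𝓕 : Finset X → Prop} (h : Monotone 𝓕) :
    Monotone (Tr ι S ρ L 𝓕) := by
  induction L with
  | nil => exact h
  | cons s L ih => exact Phi_mono ih

lemma Tr_append (L : List ℕ) (s : ℕ) (𝓕 : Finset X → Prop) :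
    Tr ι S ρ (L ++ [s]) 𝓕 = Tr ι S ρ L (Phi ι S ρ s 𝓕) := by
  simp [Tr, List.foldr_append]

lemma Phi_zero {𝓕 : Finset X → Prop} {B : Finset X} (h : Phi ι S ρ 0 𝓕 B) : 𝓕 B := by
  obtain ⟨μ, A, -, h2, h3, -⟩ := h
  have : ∃ i, μ i ≠ 0 := by
    by_contra h
    push Not at h
    simp [h] at h2
  obtain ⟨i, hi⟩ := this
  have h4 : A i = ∅ := card_eq_zero.1 (Nat.le_zero.1 (h3 i hi).2.1)
  have h5 := (h3 i hi).2.2
  rwa [h4, union_empty] at h5

lemma Phi_zero_of {𝓕 𝓖 : Finset X → Prop} {B B' : Finset X} (h : Phi ι S ρ 0 𝓕 B)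
    (h' : 𝓖 B') : Phi ι S ρ 0 𝓖 B' := by
  obtain ⟨μ, A, h1, h2, h3, h4⟩ := h
  refine ⟨μ, A, h1, h2, fun i hi => ⟨(h3 i hi).1, (h3 i hi).2.1, ?_⟩, h4⟩
  have h4 : A i = ∅ := card_eq_zero.1 (Nat.le_zero.1 (h3 i hi).2.1)
  rwa [h4, union_empty]

lemma Tr_zero {𝓕 : Finset X → Prop} (L : List ℕ) (hL : ∀ s ∈ L, s = 0) (B : Finset X)
    (h : Tr ι S ρ L 𝓕 B) : 𝓕 B := by
  induction L with
  | nil => exact h
  | cons s L ih =>
    obtain rfl : s = 0 := hL s List.mem_cons_self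
    exact ih (fun s hs => hL s (List.mem_cons_of_mem _ hs)) (Phi_zero h)

/-- one sprinkle halves all levels at once -/
lemma round (hρ : 0 < ρ) (hp : p = 2 ^ 25 * ρ) (hp1 : p ≤ 1) {𝓕 : Finset X → Prop}
    (h𝓕 : Monotone 𝓕) (L : List ℕ) (hL : L.Pairwise (fun a b => 8 * a ≤ b)) (a : ℕ)
    (ha : ∀ s ∈ L, a ≤ s) (B : Finset X) (h : Tr ι S ρ L 𝓕 B) :
    ex p S (fun W => ind (¬ Tr ι S ρ (L.map (· / 2)) 𝓕 (B ∪ W))) ≤ (1 / 4) ^ (max a 1) := by
  have hp0 : 0 < p := by rw [hp]; positivity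
  induction L generalizing a B with
  | nil =>
    refine (ex_mono hp0.le hp1 S (g := fun _ => 0) fun W => ?_).trans ?_
    · exact (ind_neg (not_not.2 (h𝓕 subset_union_left h))).le
    · rw [ex_const]; positivity
  | cons s L ih =>
    rw [List.pairwise_cons] at hL
    have has : a ≤ s := ha s List.mem_cons_self
    rcases Nat.eq_zero_or_pos s with rfl | hs
    · obtain rfl : a = 0 := by omega
      refine le_trans (ex_mono hp0.le hp1 S fun W => ?_)
        (ih hL.2 0 (fun _ _ => Nat.zero_le _) B (Phi_zero h))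
      exact ind_mono fun h1 h2 => h1 (Phi_zero_of h h2)
    · have h1 := step hρ hp hp1 hs (Tr ι S ρ L 𝓕) (Tr ι S ρ (L.map (· / 2)) 𝓕)
        (Tr_mono _ h𝓕) (fun Y hY => by
          have := ih hL.2 (8 * s) hL.1 Y hY
          rwa [max_eq_left (by omega)] at this) B h
      exact h1.trans (pow_le_pow_of_le_one (by norm_num) (by norm_num) (by omega))

/-- repeated sprinkling -/
lemma rounds (hρ : 0 < ρ) (hp : p = 2 ^ 25 * ρ) (hp1 : p ≤ 1) {𝓕 : Finset X → Prop}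
    (h𝓕 : Monotone 𝓕) (N : ℕ) (t : ℕ) (L : List ℕ) (hL : L.Pairwise (fun a b => 8 * a ≤ b))
    (ht : ∀ s ∈ L, s < 2 ^ t) (B : Finset X) (h : Tr ι S ρ L 𝓕 B) :
    ex (1 - (1 - p) ^ N) S (fun W => ind (¬ 𝓕 (B ∪ W))) ≤ 2 ^ t * (5 / 8) ^ N := by
  have hp0 : 0 < p := by rw [hp]; positivity
  have hN : ∀ N : ℕ, 0 ≤ 1 - (1 - p) ^ N ∧ 1 - (1 - p) ^ N ≤ 1 := fun N =>
    ⟨sub_nonneg.2 (pow_le_one₀ (by linarith) (by linarith)),
      sub_le_self _ (pow_nonneg (by linarith) _)⟩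
  induction N generalizing t L B with
  | zero =>
    simp only [pow_zero, sub_self, ex_zero, mul_one]
    exact (ind_le_one _).trans (one_le_pow₀ (by norm_num))
  | succ N ih =>
    rcases t with _ | t
    · have h0 : 𝓕 B := Tr_zero L (fun s hs => by have := ht s hs; omega) B h
      refine (ex_mono (hN _).1 (hN _).2 S (g := fun _ => 0) fun W => ?_).trans ?_
      · exact (ind_neg (not_not.2 (h𝓕 subset_union_left h0))).le
      · rw [ex_const]; positivity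
    · have e : 1 - (1 - p) ^ (N + 1) = p + (1 - (1 - p) ^ N) - p * (1 - (1 - p) ^ N) := by ring
      rw [e, ← ex_union]
      have key : ∀ W, ex (1 - (1 - p) ^ N) S (fun W' => ind (¬ 𝓕 (B ∪ (W ∪ W'))))
          ≤ 2 ^ t * (5 / 8) ^ N * (1 + ind (¬ Tr ι S ρ (L.map (· / 2)) 𝓕 (B ∪ W))) := by
        intro W
        simp only [← union_assoc]
        by_cases hW : Tr ι S ρ (L.map (· / 2)) 𝓕 (B ∪ W)
        · rw [ind_neg (not_not.2 hW), add_zero, mul_one]
          refine ih t _ (hL.map _ fun a b hab => by omega) (fun s hs => ?_) _ hW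
          obtain ⟨s', hs', rfl⟩ := List.mem_map.1 hs
          have := ht s' hs'
          rw [pow_succ] at this
          omega
        · rw [ind_pos hW]
          refine (ih (t + 1) L hL ht _ (Tr_mono L h𝓕 subset_union_left h)).trans (le_of_eq ?_)
          ring
      refine (ex_mono hp0.le hp1 S key).trans ?_
      rw [ex_mul, ex_add, ex_const]
      have h1 := round (ι := ι) (S := S) hρ hp hp1 h𝓕 L hL 0 (fun _ _ => Nat.zero_le _) B h
      have h2 : (0 : ℝ) ≤ 2 ^ t * (5 / 8) ^ N := by positivity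
      calc _ ≤ (2 : ℝ) ^ t * (5 / 8) ^ N * (1 + (1 / 4) ^ (max 0 1)) :=
            mul_le_mul_of_nonneg_left (by linarith) h2
        _ = _ := by
            rw [max_eq_right (Nat.zero_le 1)]
            ring

end Vale.Agent.P064
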